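import Vale.Agent.P207.H61.Irr
import Vale.Agent.P207.H376.Sys
import Vale.Agent.P207.H253.Ell3
import Vale.Agent.P207.H686.ZD
import Vale.Agent.P207.H870.Alg2

/-! # P207, line N4, row DICH: the combination of steps 4, 5, 6

Forms are `E →L[ℝ] E →L[ℝ] ℝ` (all bilinear forms). `S = D.Sm v`, the forms `s` for which `⟨N_v, s⟩` is
smooth; the alternating ones are all in it. The stabiliser of `S` acts irreducibly (global holonomy, 61's
`irr`); if its Lie algebra has no rank one element then `N_v` is smooth (376's `sysJ`, 253's `ell`); if it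
has one, then the symmetric part of `S` is `0` or everything (870's `alg`). -/

set_option linter.all false

open Set Metric Filter Topology Module
open scoped ContDiff RealInnerProductSpace

namespace Vale.Agent.P207.H242.Dich

/-- the symmetric forms -/
def SymB (E : Type*) [NormedAddCommGroup E] [NormedSpace ℝ E] :
    Submodule ℝ (E →L[ℝ] E →L[ℝ] ℝ) where
  carrier := {s | ∀ u w, s u w = s w u}
  add_mem' := by
    intro a b ha hb u w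
    have h1 := ha u w
    have h2 := hb u w
    simp only [ContinuousLinearMap.add_apply, h1, h2]
  zero_mem' := by intro u w; simp
  smul_mem' := by
    intro c a ha u w
    have h1 := ha u w
    simp only [ContinuousLinearMap.smul_apply, h1]

theorem mem_SymB {E : Type*} [NormedAddCommGroup E] [NormedSpace ℝ E] {s : E →L[ℝ] E →L[ℝ] ℝ} :
    s ∈ SymB E ↔ ∀ u w, s u w = s w u := Iff.rfl

/-- pull back by `G` maps `S'` onto `S` -/
def PB {E : Type*} [NormedAddCommGroup E] [NormedSpace ℝ E] (S S' : Submodule ℝ (E →L[ℝ] E →L[ℝ] ℝ))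
    (G : E →L[ℝ] E) : Prop :=
  (∀ s' ∈ S', ∃ s ∈ S, ∀ u w, s u w = s' (G u) (G w)) ∧
    ∀ s ∈ S, ∃ s' ∈ S', ∀ u w, s u w = s' (G u) (G w)

section NS
variable {E : Type*} [NormedAddCommGroup E] [NormedSpace ℝ E]

/-- pull back -/
noncomputable def pb (G : E →L[ℝ] E) (s : E →L[ℝ] E →L[ℝ] ℝ) : E →L[ℝ] E →L[ℝ] ℝ := s.bilinearComp G G

@[simp] theorem pb_apply (G : E →L[ℝ] E) (s : E →L[ℝ] E →L[ℝ] ℝ) (u w : E) :
    pb G s u w = s (G u) (G w) := rfl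

/-- inverses near `1` -/
theorem exists_inv [CompleteSpace E] {g : E →L[ℝ] E} (hg : ‖g - 1‖ ≤ 1 / 2) :
    ∃ g' : E →L[ℝ] E, g' * g = 1 ∧ g * g' = 1 ∧ ‖g' - 1‖ ≤ 2 * ‖g - 1‖ := by
  have h1 : ‖(1 : E →L[ℝ] E) - g‖ < 1 := by rw [norm_sub_rev]; linarith
  set U := Units.oneSub ((1 : E →L[ℝ] E) - g) h1 with hU
  have hUv : (U : E →L[ℝ] E) = g := by rw [hU, Units.val_oneSub]; abel
  refine ⟨(↑U⁻¹ : E →L[ℝ] E), ?_, ?_, ?_⟩
  · rw [← hUv]; exact Units.inv_mul U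
  · rw [← hUv]; exact Units.mul_inv U
  · have h2 : (↑U⁻¹ : E →L[ℝ] E) - 1 = (↑U⁻¹ : E →L[ℝ] E) * (1 - g) := by
      rw [mul_sub, mul_one, ← hUv, Units.inv_mul]
    have h3 : ‖(1 : E →L[ℝ] E)‖ ≤ 1 := ContinuousLinearMap.norm_id_le
    have h4 : ‖(↑U⁻¹ : E →L[ℝ] E) - 1‖ ≤ ‖(↑U⁻¹ : E →L[ℝ] E)‖ * ‖g - 1‖ := by
      rw [h2, norm_sub_rev g 1]; exact norm_mul_le _ _
    have h5 : ‖(↑U⁻¹ : E →L[ℝ] E)‖ ≤ ‖(↑U⁻¹ : E →L[ℝ] E) - 1‖ + ‖(1 : E →L[ℝ] E)‖ := by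
      have := norm_add_le ((↑U⁻¹ : E →L[ℝ] E) - 1) (1 : E →L[ℝ] E)
      simpa using this
    have h6 : ‖(↑U⁻¹ : E →L[ℝ] E)‖ ≤ 2 := by
      nlinarith [norm_nonneg (↑U⁻¹ : E →L[ℝ] E), norm_nonneg (g - 1)]
    nlinarith [norm_nonneg (g - 1)]

/-- two pull backs differ by a stabiliser -/
theorem stab_of_pb {S S' : Submodule ℝ (E →L[ℝ] E →L[ℝ] ℝ)} {G₀ G κ' : E →L[ℝ] E}
    (h₀ : PB S S' G₀) (h : PB S S' G) (hk : G₀ * κ' = 1) : H61.Stab S (κ' * G) := by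
  intro s hs
  obtain ⟨s', hs', h1⟩ := h₀.2 s hs
  obtain ⟨t, ht, h2⟩ := h.1 s' hs'
  refine ⟨t, ht, fun u w => ?_⟩
  have h3 : ∀ z, G₀ (κ' z) = z := fun z => by
    have := congrArg (fun T : E →L[ℝ] E => T z) hk
    simpa using this
  rw [h2, h1]
  simp only [ContinuousLinearMap.mul_apply, h3]

end NS

section IP
variable {E : Type*} [NormedAddCommGroup E] [InnerProductSpace ℝ E]

/-- the symmetric product of `α` and `β` as a form -/
noncomputable def sp (α β : E) : E →L[ℝ] E →L[ℝ] ℝ :=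
  (1 / 2 : ℝ) • ((innerSL ℝ α).smulRight (innerSL ℝ β) + (innerSL ℝ β).smulRight (innerSL ℝ α))

theorem sp_apply (α β u w : E) : sp α β u w = (1 / 2) * (⟪α, u⟫ * ⟪β, w⟫ + ⟪β, u⟫ * ⟪α, w⟫) := by
  rfl

theorem norm_sp_le (α β : E) : ‖sp α β‖ ≤ ‖α‖ * ‖β‖ := by
  refine ContinuousLinearMap.opNorm_le_bound₂ _ (by positivity) fun u w => ?_
  rw [sp_apply, norm_mul]
  have h1 : ‖⟪α, u⟫ * ⟪β, w⟫‖ ≤ (‖α‖ * ‖u‖) * (‖β‖ * ‖w‖) := by
    rw [norm_mul]; exact mul_le_mul (norm_inner_le_norm _ _) (norm_inner_le_norm _ _) (norm_nonneg _) (by positivity)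
  have h2 : ‖⟪β, u⟫ * ⟪α, w⟫‖ ≤ (‖β‖ * ‖u‖) * (‖α‖ * ‖w‖) := by
    rw [norm_mul]; exact mul_le_mul (norm_inner_le_norm _ _) (norm_inner_le_norm _ _) (norm_nonneg _) (by positivity)
  have h3 := norm_add_le (⟪α, u⟫ * ⟪β, w⟫) (⟪β, u⟫ * ⟪α, w⟫)
  have h4 : ‖(1 / 2 : ℝ)‖ = 1 / 2 := by norm_num
  rw [h4]
  linarith

variable [FiniteDimensional ℝ E]

/-- symmetric forms are combinations of symmetric products -/
theorem sym_eq_sum {s : E →L[ℝ] E →L[ℝ] ℝ} (hs : s ∈ SymB E) :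
    s = ∑ i, ∑ j, s (stdOrthonormalBasis ℝ E i) (stdOrthonormalBasis ℝ E j) •
      sp (stdOrthonormalBasis ℝ E i) (stdOrthonormalBasis ℝ E j) := by
  set b := stdOrthonormalBasis ℝ E with hb
  refine ContinuousLinearMap.ext fun u => ContinuousLinearMap.ext fun w => ?_
  have h1 : s u w = ∑ i, ∑ j, ⟪b i, u⟫ * ⟪b j, w⟫ * s (b i) (b j) := by
    conv_lhs => rw [← b.sum_repr' u, ← b.sum_repr' w]
    simp only [map_sum, map_smul, ContinuousLinearMap.sum_apply, ContinuousLinearMap.smul_apply,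
      smul_eq_mul, Finset.mul_sum]
    rw [Finset.sum_comm]
    refine Finset.sum_congr rfl fun i _ => Finset.sum_congr rfl fun j _ => ?_
    ring
  have h2 : s u w = ∑ i, ∑ j, ⟪b j, u⟫ * ⟪b i, w⟫ * s (b i) (b j) := by
    rw [h1, Finset.sum_comm]
    refine Finset.sum_congr rfl fun i _ => Finset.sum_congr rfl fun j _ => ?_
    rw [hs (b j) (b i)]
  have h3 : (∑ i, ∑ j, s (b i) (b j) • sp (b i) (b j)) u w =
      ∑ i, ∑ j, s (b i) (b j) * ((1 / 2) * (⟪b i, u⟫ * ⟪b j, w⟫ + ⟪b j, u⟫ * ⟪b i, w⟫)) := by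
    simp only [ContinuousLinearMap.sum_apply, ContinuousLinearMap.smul_apply, smul_eq_mul, sp_apply]
  rw [h3]
  have h4 : s u w = (1 / 2) * s u w + (1 / 2) * s u w := by ring
  rw [h4]
  nth_rw 1 [h1]
  rw [h2, Finset.mul_sum, Finset.mul_sum, ← Finset.sum_add_distrib]
  refine Finset.sum_congr rfl fun i _ => ?_
  rw [Finset.mul_sum, Finset.mul_sum, ← Finset.sum_add_distrib]
  refine Finset.sum_congr rfl fun j _ => ?_
  ring

/-- smoothness of all `N α` gives smoothness of all `⟨N, s⟩`, `s` symmetric -/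
theorem smooth_all {N : E → (E →L[ℝ] E →L[ℝ] ℝ) →ₗ[ℝ] ℝ} {U : Set E}
    (h : ∀ α : E, ∃ u : E → E, ContDiffOn ℝ ∞ u U ∧ ∀ x ∈ U, ∀ β, ⟪u x, β⟫ = N x (sp α β))
    {s : E →L[ℝ] E →L[ℝ] ℝ} (hs : s ∈ SymB E) : ContDiffOn ℝ ∞ (fun x => N x s) U := by
  choose u hu hu' using h
  set b := stdOrthonormalBasis ℝ E with hb
  have h1 : ∀ x ∈ U, N x s = ∑ i, ∑ j, s (b i) (b j) * ⟪u (b i) x, b j⟫ := by
    intro x hx
    conv_lhs => rw [sym_eq_sum hs]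
    simp only [map_sum, map_smul, smul_eq_mul]
    refine Finset.sum_congr rfl fun i _ => Finset.sum_congr rfl fun j _ => ?_
    rw [hu' (b i) x hx (b j)]
  refine ContDiffOn.congr ?_ h1
  refine ContDiffOn.sum fun i _ => ContDiffOn.sum fun j _ => ?_
  exact contDiffOn_const.mul ((hu (b i)).inner ℝ contDiffOn_const)

/-- the data at one frame, for one direction `α`: the vector `u = N α` and the holonomies to the near
leaves `ξ_t` (`h` = stable holonomy in the coordinate `a_v`, `A` = derivative of the affine chart of the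
leaf `ξ_t`) -/
def Loc (N : E → (E →L[ℝ] E →L[ℝ] ℝ) →ₗ[ℝ] ℝ) (S : Submodule ℝ (E →L[ℝ] E →L[ℝ] ℝ)) (α : E) : Prop :=
  ∃ u : E → E, ContinuousOn u (ball 0 1) ∧ (∀ x ∈ ball (0 : E) 1, ∀ β, ⟪u x, β⟫ = N x (sp α β)) ∧
    ∃ (θ C t₀ : ℝ) (Ck : ℕ → ℝ), 0 < θ ∧ θ ≤ 1 ∧ 0 < t₀ ∧ 0 ≤ C ∧ ∀ t, 0 < t → t < t₀ →
      ∃ (S' : Submodule ℝ (E →L[ℝ] E →L[ℝ] ℝ)) (h : E → E) (A : E → E →L[ℝ] E),
        DifferentiableOn ℝ h (ball 0 1) ∧
        (∀ x ∈ ball (0 : E) 1, ‖h x - x - t • u x‖ ≤ C * t ^ (1 + θ)) ∧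
        (∀ x ∈ ball (0 : E) 1, ‖fderiv ℝ h x - 1‖ ≤ C * t) ∧
        ContDiffOn ℝ ∞ A (ball 0 2) ∧
        (∀ x ∈ ball (0 : E) 2, ‖A x - 1‖ ≤ C * t ^ θ) ∧
        (∀ x ∈ ball (0 : E) 2, ‖fderiv ℝ A x‖ ≤ C * t ^ θ) ∧
        (∀ k, ∀ x ∈ ball (0 : E) 2, ‖iteratedFDeriv ℝ k A x‖ ≤ Ck k) ∧
        ∀ x ∈ ball (0 : E) 1, PB S S' (A (h x) * fderiv ℝ h x)

/-- steps 5: smooth or a rank one element -/
theorem smooth_or_rk {N : E → (E →L[ℝ] E →L[ℝ] ℝ) →ₗ[ℝ] ℝ} {S : Submodule ℝ (E →L[ℝ] E →L[ℝ] ℝ)} {K : ℝ}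
    (hK0 : 0 ≤ K) (hN : ∀ x ∈ ball (0 : E) 1, ∀ s, |N x s| ≤ K * ‖s‖) (hL : ∀ α, Loc N S α)
    (hJ : ∀ ζ w : E, ζ ≠ 0 → w ≠ 0 → H253.rk ζ w ∉ H61.J S) :
    ∀ α : E, ∃ u : E → E, ContDiffOn ℝ ∞ u (ball 0 1) ∧
      ∀ x ∈ ball (0 : E) 1, ∀ β, ⟪u x, β⟫ = N x (sp α β) := by
  letI : MeasurableSpace E := borel E
  haveI : BorelSpace E := ⟨rfl⟩
  haveI : CompleteSpace E := FiniteDimensional.complete ℝ E
  intro α
  obtain ⟨u, huc, hu, θ, C, t₀, Ck, hθ, hθ1, ht₀, hC, hd⟩ := hL α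
  refine ⟨u, ?_, hu⟩
  -- the size of `u`
  have hub : ∀ x ∈ ball (0 : E) 1, ‖u x‖ ≤ K * ‖α‖ := by
    intro x hx
    have h1 := hu x hx (u x)
    have h2 : |N x (sp α (u x))| ≤ K * (‖α‖ * ‖u x‖) :=
      (hN x hx _).trans (mul_le_mul_of_nonneg_left (norm_sp_le _ _) hK0)
    rw [← h1, real_inner_self_eq_norm_sq, abs_pow, abs_norm] at h2
    by_contra hn
    push Not at hn
    have h3 : 0 < ‖u x‖ := lt_of_le_of_lt (by positivity) hn
    nlinarith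
  -- the constants
  set C₁ : ℝ := 2 * (C * (1 + C) + C) + C + K * ‖α‖ with hC₁
  have hC₁0 : 0 ≤ C₁ := by positivity
  have hCC₁ : C ≤ C₁ := by rw [hC₁]; nlinarith [mul_nonneg hK0 (norm_nonneg α)]
  obtain ⟨t1, ht1, ht11, C', hC', Ck', hCk', hs⟩ := H376.sysJ S C₁ θ (fun k => |Ck k|) hC₁0
    (fun k => abs_nonneg _) hθ hθ1
  set m : ℝ := 1 / (2 * (C * (1 + C) + C) + 1) with hm
  have hm0 : 0 < m := by positivity
  set t₂ : ℝ := min (min t₀ t1) (min (1 / (C₁ + 1)) (m ^ (1 / θ))) with ht₂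
  have ht₂0 : 0 < t₂ := by
    refine lt_min (lt_min ht₀ ht1) (lt_min (by positivity) (Real.rpow_pos_of_pos hm0 _))
  refine H253.ell isOpen_ball huc hJ hθ ht₂0 hC' (Ck := Ck') fun t ht htt => ?_
  have htt₀ : t < t₀ := htt.trans_le ((min_le_left _ _).trans (min_le_left _ _))
  have htt1 : t < t1 := htt.trans_le ((min_le_left _ _).trans (min_le_right _ _))
  have httC : t ≤ 1 / (C₁ + 1) := (htt.trans_le ((min_le_right _ _).trans (min_le_left _ _))).le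
  have httm : t < m ^ (1 / θ) := htt.trans_le ((min_le_right _ _).trans (min_le_right _ _))
  have ht1' : t ≤ 1 := htt1.le.trans ht11
  have htC1 : C₁ * t ≤ 1 := by
    have h1 : (C₁ + 1) * t ≤ 1 := by
      rw [le_div_iff₀ (by positivity)] at httC
      linarith
    nlinarith
  set s : ℝ := t ^ θ with hsd
  have hs0 : 0 < s := Real.rpow_pos_of_pos ht _
  have hs1 : s ≤ 1 := Real.rpow_le_one ht.le ht1' hθ.le
  have hts : t ≤ s := by
    have := Real.rpow_le_rpow_of_exponent_ge ht ht1' hθ1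
    rwa [Real.rpow_one] at this
  have hsm : s ≤ m := by
    have h2 : t ^ θ < (m ^ (1 / θ)) ^ θ := Real.rpow_lt_rpow ht.le httm hθ
    rw [← Real.rpow_mul hm0.le, one_div, inv_mul_cancel₀ hθ.ne', Real.rpow_one] at h2
    exact h2.le
  have htp : t ^ (1 + θ) ≤ t := by
    rw [Real.rpow_add ht, Real.rpow_one]
    nlinarith
  obtain ⟨S', h, A, hhd, hhu, hhD, hA, hA1, hA2, hAk, hPB⟩ := hd t ht htt₀
  have hhx : ∀ x ∈ ball (0 : E) 1, ‖h x - x‖ ≤ C₁ * t := by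
    intro x hx
    have h1 : h x - x = (h x - x - t • u x) + t • u x := by abel
    rw [h1]
    refine (norm_add_le _ _).trans ?_
    rw [norm_smul, Real.norm_of_nonneg ht.le]
    have h2 := hhu x hx
    have h3 := hub x hx
    have h4 : C * t ^ (1 + θ) ≤ C * t := mul_le_mul_of_nonneg_left htp hC
    have h5 : t * ‖u x‖ ≤ t * (K * ‖α‖) := mul_le_mul_of_nonneg_left h3 ht.le
    have h6 : 0 ≤ C * (1 + C) + C := by positivity
    rw [hC₁]
    nlinarith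
  have h0b : (0 : E) ∈ ball (0 : E) 1 := by simp
  have h02 : h 0 ∈ ball (0 : E) 2 := by
    have h1 := hhx 0 h0b
    rw [sub_zero] at h1
    rw [mem_ball_zero_iff]
    linarith
  -- `κ`
  set G₀ : E →L[ℝ] E := A (h 0) * fderiv ℝ h 0 with hG₀
  have hG₀1 : ‖G₀ - 1‖ ≤ (C * (1 + C) + C) * s := by
    have h1 : G₀ - 1 = (A (h 0) - 1) * (fderiv ℝ h 0 - 1) + (A (h 0) - 1) + (fderiv ℝ h 0 - 1) := by
      rw [hG₀]; noncomm_ring
    have h2 := hA1 (h 0) h02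
    have h3 := hhD 0 h0b
    have h4 : ‖(A (h 0) - 1) * (fderiv ℝ h 0 - 1)‖ ≤ (C * s) * (C * t) :=
      (norm_mul_le _ _).trans (mul_le_mul h2 h3 (norm_nonneg _) (by positivity))
    have h5 := norm_add_le ((A (h 0) - 1) * (fderiv ℝ h 0 - 1) + (A (h 0) - 1)) (fderiv ℝ h 0 - 1)
    have h6 := norm_add_le ((A (h 0) - 1) * (fderiv ℝ h 0 - 1)) (A (h 0) - 1)
    have h7 : (C * s) * (C * t) ≤ C * C * s := by
      have : (C * s) * (C * t) ≤ (C * s) * (C * 1) := by gcongr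
      nlinarith
    have h8 : C * t ≤ C * s := mul_le_mul_of_nonneg_left hts hC
    rw [h1]
    nlinarith
  have hG₀2 : ‖G₀ - 1‖ ≤ 1 / 2 := by
    have h1 : (C * (1 + C) + C) * s ≤ (C * (1 + C) + C) * m := by gcongr
    have h2 : (C * (1 + C) + C) * m ≤ 1 / 2 := by
      rw [hm, mul_one_div, div_le_div_iff₀ (by positivity) (by norm_num)]
      linarith
    linarith
  obtain ⟨κ', -, hκ2, hκ3⟩ := exists_inv hG₀2
  obtain ⟨F, hF1, hF2, hF3, hF4, hF5, hF6⟩ := hs t ht htt1 h u A κ'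
    (by
      refine hκ3.trans ?_
      have h1 : 2 * ((C * (1 + C) + C) * s) ≤ C₁ * s := by
        have h2 : 2 * (C * (1 + C) + C) ≤ C₁ := by
          rw [hC₁]; nlinarith [mul_nonneg hK0 (norm_nonneg α)]
        nlinarith
      linarith)
    hhd hhx
    (fun x hx => (hhu x hx).trans (mul_le_mul_of_nonneg_right hCC₁ (Real.rpow_nonneg ht.le _)))
    (fun x hx => (hhD x hx).trans (mul_le_mul_of_nonneg_right hCC₁ ht.le)) hA
    (fun x hx => (hA1 x hx).trans (mul_le_mul_of_nonneg_right hCC₁ hs0.le))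
    (fun x hx => (hA2 x hx).trans (mul_le_mul_of_nonneg_right hCC₁ hs0.le))
    (fun k x hx => (hAk k x hx).trans (le_abs_self _))
    (fun x hx => by
      rw [mul_assoc]
      exact stab_of_pb (hPB 0 h0b) (hPB x hx) hκ2)
  exact ⟨h, F, hF1, hF2, hF3, hF4, hF5, hF6⟩

/-- the global holonomy from the leaf of `v` to another leaf, in the affine charts -/
def Glo (S : Submodule ℝ (E →L[ℝ] E →L[ℝ] ℝ)) : Prop :=
  ∃ (S' : Submodule ℝ (E →L[ℝ] E →L[ℝ] ℝ)) (h : E → E) (Dh : E → E →L[ℝ] E) (p' p : E),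
    (∀ x ≠ p', HasFDerivAt h (Dh x) x) ∧ ContinuousOn Dh {p'}ᶜ ∧
    (∀ x ≠ p', Function.Injective (Dh x)) ∧ (∀ x ≠ p', h x ≠ p) ∧
    Tendsto h (cocompact E) (𝓝 p) ∧ ∀ x ≠ p', PB S S' (Dh x)

theorem irr_of_glo (hdim : 2 ≤ finrank ℝ E) {S : Submodule ℝ (E →L[ℝ] E →L[ℝ] ℝ)} (hG : Glo S)
    (F : Submodule ℝ E) (hF : ∀ X ∈ H61.J S, ∀ u ∈ F, X u ∈ F) : F = ⊥ ∨ F = ⊤ := by
  obtain ⟨S', h, Dh, p', p, h1, h2, h3, h4, h5, h6⟩ := hG
  refine H61.irr (E := E) (E' := E) ?_ h1 h2 (fun x hx => ?_) h4 h5 (fun x hx => (h6 x hx).1)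
    (fun x hx => (h6 x hx).2) hF
  · rw [← finrank_eq_rank]
    exact_mod_cast lt_of_lt_of_le Nat.one_lt_two hdim
  · have h7 := h3 x hx
    exact ⟨h7, (LinearMap.injective_iff_surjective (f := (Dh x : E →ₗ[ℝ] E))).1 h7⟩

/-- ALG (step 6, 870), for symmetric forms -/
theorem alg {S : Submodule ℝ (E →L[ℝ] E →L[ℝ] ℝ)} (hS : S ≤ SymB E)
    (hirr : ∀ F : Submodule ℝ E, (∀ X ∈ H61.J S, ∀ u ∈ F, X u ∈ F) → F = ⊥ ∨ F = ⊤)
    {ζ w : E} (hζ : ζ ≠ 0) (hw : w ≠ 0) (hX : H253.rk ζ w ∈ H61.J S) : S = ⊥ ∨ SymB E ≤ S := by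
  have h1 : innerSL ℝ ζ ≠ 0 := by
    intro h
    have h2 := congrArg (fun f : E →L[ℝ] ℝ => f ζ) h
    simp only [innerSL_apply_apply, real_inner_self_eq_norm_sq, ContinuousLinearMap.zero_apply] at h2
    exact hζ (norm_eq_zero.1 (pow_eq_zero_iff (two_ne_zero) |>.1 h2))
  rcases H870.Alg.alg' (fun s hs => hS hs) (fun F hF => hirr F fun X hX => hF X hX) h1 hw (fun s hs => by
    obtain ⟨t, ht, h3⟩ := hX s hs
    refine ⟨t, ht, fun u v => ?_⟩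
    rw [h3]
    have h4 : ∀ z, H253.rk ζ w z = (innerSL ℝ ζ z) • w := fun z => rfl
    rw [h4, h4, map_smul, map_smul, ContinuousLinearMap.smul_apply, smul_eq_mul, smul_eq_mul]) with h | h
  · exact Or.inl h
  · exact Or.inr fun s hs => h s hs

omit [FiniteDimensional ℝ E] in
theorem J_le_J_inf (S : Submodule ℝ (E →L[ℝ] E →L[ℝ] ℝ)) : H61.J S ≤ H61.J (S ⊓ SymB E) := by
  intro X hX s hs
  obtain ⟨t, ht, h1⟩ := hX s hs.1
  refine ⟨t, ⟨ht, fun u w => ?_⟩, h1⟩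
  rw [h1, h1, hs.2 (X u) w, hs.2 u (X w), add_comm]

/-- **the dichotomy at one frame** -/
theorem dich_one (hdim : 2 ≤ finrank ℝ E) {N : E → (E →L[ℝ] E →L[ℝ] ℝ) →ₗ[ℝ] ℝ}
    {S : Submodule ℝ (E →L[ℝ] E →L[ℝ] ℝ)}
    (hS : ∀ s ∈ SymB E, ContDiffOn ℝ ∞ (fun x => N x s) (ball (0 : E) 1) → s ∈ S) {K : ℝ} (hK0 : 0 ≤ K)
    (hN : ∀ x ∈ ball (0 : E) 1, ∀ s, |N x s| ≤ K * ‖s‖) (hL : ∀ α, Loc N S α) (hG : Glo S) :
    S ⊓ SymB E = ⊥ ∨ SymB E ≤ S := by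
  have hirr : ∀ F : Submodule ℝ E, (∀ X ∈ H61.J (S ⊓ SymB E), ∀ u ∈ F, X u ∈ F) → F = ⊥ ∨ F = ⊤ :=
    fun F hF => irr_of_glo hdim hG F fun X hX => hF X (J_le_J_inf S hX)
  by_cases hJ : ∀ ζ w : E, ζ ≠ 0 → w ≠ 0 → H253.rk ζ w ∉ H61.J S
  · right
    intro s hs
    exact hS s hs (smooth_all (smooth_or_rk hK0 hN hL hJ) hs)
  · push Not at hJ
    obtain ⟨ζ, w, hζ, hw, hm⟩ := hJ
    rcases alg (S := S ⊓ SymB E) inf_le_right hirr hζ hw (J_le_J_inf S hm) with h | h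
    · exact Or.inl h
    · exact Or.inr (h.trans inf_le_left)

omit [FiniteDimensional ℝ E] in
/-- symmetric and alternating part -/
theorem exists_split (s : E →L[ℝ] E →L[ℝ] ℝ) : ∃ a b : E →L[ℝ] E →L[ℝ] ℝ,
    (∀ u w, s u w = a u w + b u w) ∧ a ∈ SymB E ∧ ∀ u w, b u w = - b w u := by
  refine ⟨(1 / 2 : ℝ) • (s + s.flip), (1 / 2 : ℝ) • (s - s.flip), ?_, ?_, ?_⟩
  · intro u w
    simp only [ContinuousLinearMap.smul_apply, ContinuousLinearMap.add_apply,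
      ContinuousLinearMap.sub_apply, ContinuousLinearMap.flip_apply, smul_eq_mul]
    ring
  · intro u w
    simp only [ContinuousLinearMap.smul_apply, ContinuousLinearMap.add_apply,
      ContinuousLinearMap.flip_apply]
    rw [add_comm]
  · intro u w
    simp only [ContinuousLinearMap.smul_apply, ContinuousLinearMap.sub_apply,
      ContinuousLinearMap.flip_apply, smul_eq_mul]
    ring

end IP

section Abs
variable {V : Type*} [AddCommGroup V] [Module ℝ V] [FiniteDimensional ℝ V]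

theorem inf_eq_bot_of {S S' A Y : Submodule ℝ V} (hr : finrank ℝ S = finrank ℝ S')
    (hsp : ∀ s : V, ∃ a ∈ Y, ∃ b ∈ A, s = a + b) (hA : A ≤ S') (hA' : A ≤ S) (h : S ⊓ Y = ⊥) :
    S' ⊓ Y = ⊥ := by
  have h1 : S ≤ S' := by
    intro s hs
    obtain ⟨a, ha, b, hb, rfl⟩ := hsp s
    have h2 : a ∈ S := by
      have := S.sub_mem hs (hA' hb)
      rwa [add_sub_cancel_right] at this
    have h3 : a ∈ S ⊓ Y := ⟨h2, ha⟩
    rw [h, Submodule.mem_bot] at h3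
    rw [h3, zero_add]
    exact hA hb
  have h2 : S = S' := Submodule.eq_of_le_of_finrank_eq h1 hr
  rw [← h2]; exact h

end Abs

section Final
variable {E : Type*} [NormedAddCommGroup E] [InnerProductSpace ℝ E] [FiniteDimensional ℝ E]

/-- a linear map on forms from one on `BF E` -/
noncomputable def toForms (f : H61.BF E →ₗ[ℝ] ℝ) : (E →L[ℝ] E →L[ℝ] ℝ) →ₗ[ℝ] ℝ where
  toFun s := f (H61.mkf s)
  map_add' a b := f.map_add (H61.mkf a) (H61.mkf b)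
  map_smul' c a := f.map_smul c (H61.mkf a)

theorem leftInv {W : Type*} [NormedAddCommGroup W] [NormedSpace ℝ W]
    (ι : W →ₗ[ℝ] (E →L[ℝ] E →L[ℝ] ℝ)) (hι : Function.Injective ι) :
    FiniteDimensional ℝ W ∧ ∃ ρ : H61.BF E →ₗ[ℝ] W, ∀ w, ρ (H61.mkf (ι w)) = w := by
  set ι' : W →ₗ[ℝ] H61.BF E :=
    { toFun := fun w => H61.mkf (ι w)
      map_add' := fun a b => ι.map_add a b
      map_smul' := fun c a => ι.map_smul c a } with hι'
  have h1 : Function.Injective ι' := hι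
  refine ⟨FiniteDimensional.of_injective ι' h1, ?_⟩
  obtain ⟨ρ, hρ⟩ := LinearMap.exists_leftInverse_of_injective ι' (LinearMap.ker_eq_bot.2 h1)
  exact ⟨ρ, fun w => LinearMap.congr_fun hρ w⟩

theorem bound_bf {W : Type*} [NormedAddCommGroup W] [NormedSpace ℝ W] (ρ : H61.BF E →ₗ[ℝ] W) :
    ∃ c : ℝ, 0 ≤ c ∧ ∀ s : E →L[ℝ] E →L[ℝ] ℝ, ‖ρ (H61.mkf s)‖ ≤ c * ‖s‖ := by
  have h1 : Continuous ρ := ρ.continuous_of_finiteDimensional
  set ρc : H61.BF E →L[ℝ] W := ⟨ρ, h1⟩ with hρc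
  exact ⟨‖ρc‖, norm_nonneg _, fun s => ρc.le_opNorm (H61.mkf s)⟩

/-- **ROW DICH** (over 686's zoom data). `W` = a space of forms which contains all symmetric ones, by `ι`. -/
theorem dich {X W : Type*} [NormedAddCommGroup W] [NormedSpace ℝ W]
    (hdim : 2 ≤ finrank ℝ E) (ι : W →ₗ[ℝ] (E →L[ℝ] E →L[ℝ] ℝ)) (hι : Function.Injective ι)
    (hr : ∀ s ∈ SymB E, ∃ w, ι w = s) (D : H686.ZD E W X)
    (rank : ∀ v w, finrank ℝ (D.Sm v) = finrank ℝ (D.Sm w))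
    (alt : ∀ v, ∀ s : W, (∀ u w, ι s u w = - ι s w u) → s ∈ D.Sm v)
    (v₀ : X)
    (hL : ∀ N : E → (E →L[ℝ] E →L[ℝ] ℝ) →ₗ[ℝ] ℝ, (∀ x w, N x (ι w) = D.N v₀ x w) →
      ∀ α, Loc N ((D.Sm v₀).map ι) α)
    (hG : Glo ((D.Sm v₀).map ι)) :
    (∀ v, ∀ s ∈ D.Sm v, ι s ∈ SymB E → s = 0) ∨ ∀ v, D.Sm v = ⊤ := by
  obtain ⟨hfd, ρ, hρ⟩ := leftInv ι hι
  haveI : FiniteDimensional ℝ W := hfd
  have hK0 : 0 ≤ D.K := (norm_nonneg _).trans (D.bd v₀ 0 (by simp))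
  obtain ⟨c, hc0, hc⟩ := bound_bf ρ
  set N : E → (E →L[ℝ] E →L[ℝ] ℝ) →ₗ[ℝ] ℝ := fun x => toForms ((D.N v₀ x : W →ₗ[ℝ] ℝ) ∘ₗ ρ) with hN
  have hN0 : ∀ x s, N x s = D.N v₀ x (ρ (H61.mkf s)) := fun x s => rfl
  have hN1 : ∀ x w, N x (ι w) = D.N v₀ x w := fun x w => by rw [hN0, hρ]
  -- splitting in `W`
  have hsp : ∀ w : W, ∃ a b : W, ι a ∈ SymB E ∧ (∀ u z, ι b u z = - ι b z u) ∧ w = a + b := by
    intro w
    obtain ⟨a, b, h1, h2, h3⟩ := exists_split (ι w)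
    obtain ⟨a', rfl⟩ := hr a h2
    refine ⟨a', w - a', h2, fun u z => ?_, by abel⟩
    have h4 : ∀ u z, ι (w - a') u z = b u z := fun u z => by
      rw [map_sub, ContinuousLinearMap.sub_apply, ContinuousLinearMap.sub_apply, h1]; ring
    rw [h4, h4]
    exact h3 u z
  have hA1 : ∀ s ∈ SymB E, ContDiffOn ℝ ∞ (fun x => N x s) (ball (0 : E) 1) →
      s ∈ (D.Sm v₀).map ι := by
    intro s hs h
    obtain ⟨w, rfl⟩ := hr s hs
    refine Submodule.mem_map_of_mem ?_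
    have h1 : (fun x => N x (ι w)) = fun x => D.N v₀ x w := funext fun x => hN1 x w
    rw [h1] at h
    exact h
  have hA2 : ∀ x ∈ ball (0 : E) 1, ∀ s, |N x s| ≤ D.K * c * ‖s‖ := by
    intro x hx s
    rw [hN0]
    calc |D.N v₀ x (ρ (H61.mkf s))| ≤ ‖D.N v₀ x‖ * ‖ρ (H61.mkf s)‖ := (D.N v₀ x).le_opNorm _
      _ ≤ D.K * (c * ‖s‖) := mul_le_mul (D.bd v₀ x hx) (hc s) (norm_nonneg _) hK0
      _ = D.K * c * ‖s‖ := by ring
  rcases dich_one hdim hA1 (mul_nonneg hK0 hc0) hA2 (hL N hN1) hG with h | h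
  · left
    -- `Y`, `A`
    set Y : Submodule ℝ W := (SymB E).comap ι with hY
    have hbot : D.Sm v₀ ⊓ Y = ⊥ := by
      rw [Submodule.eq_bot_iff]
      intro w hw
      have h1 : ι w ∈ (D.Sm v₀).map ι ⊓ SymB E := ⟨Submodule.mem_map_of_mem hw.1, hw.2⟩
      rw [h, Submodule.mem_bot] at h1
      exact hι (h1.trans (map_zero ι).symm)
    intro v s hs hs'
    have h2 := inf_eq_bot_of (A := D.Sm v₀ ⊓ D.Sm v) (rank v₀ v) (Y := Y) (fun w => ?_) inf_le_right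
      inf_le_left hbot
    · have h3 : s ∈ D.Sm v ⊓ Y := ⟨hs, hs'⟩
      rw [h2, Submodule.mem_bot] at h3
      exact h3
    · obtain ⟨a, b, ha, hb, rfl⟩ := hsp w
      exact ⟨a, ha, b, ⟨alt v₀ b hb, alt v b hb⟩, rfl⟩
  · right
    have htop : D.Sm v₀ = ⊤ := by
      rw [eq_top_iff]
      intro w _
      obtain ⟨a, b, ha, hb, rfl⟩ := hsp w
      refine (D.Sm v₀).add_mem ?_ (alt v₀ b hb)
      obtain ⟨a', ha', h5⟩ := h ha
      rwa [hι h5] at ha'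
    intro v
    apply Submodule.eq_top_of_finrank_eq
    rw [← rank v₀ v, htop, finrank_top]

/-- the same, in the words of 478's ruling (R1): all forms alternating, or everything -/
theorem dich_alt {X W : Type*} [NormedAddCommGroup W] [NormedSpace ℝ W]
    (hdim : 2 ≤ finrank ℝ E) (ι : W →ₗ[ℝ] (E →L[ℝ] E →L[ℝ] ℝ)) (hι : Function.Injective ι)
    (hr : ∀ s ∈ SymB E, ∃ w, ι w = s) (D : H686.ZD E W X)
    (rank : ∀ v w, finrank ℝ (D.Sm v) = finrank ℝ (D.Sm w))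
    (alt : ∀ v, ∀ s : W, (∀ u w, ι s u w = - ι s w u) → s ∈ D.Sm v)
    (v₀ : X)
    (hL : ∀ N : E → (E →L[ℝ] E →L[ℝ] ℝ) →ₗ[ℝ] ℝ, (∀ x w, N x (ι w) = D.N v₀ x w) →
      ∀ α, Loc N ((D.Sm v₀).map ι) α)
    (hG : Glo ((D.Sm v₀).map ι)) :
    (∀ v, ∀ s ∈ D.Sm v, ∀ u w, ι s u w = - ι s w u) ∨ ∀ v, D.Sm v = ⊤ := by
  rcases dich hdim ι hι hr D rank alt v₀ hL hG with h | h
  · left
    intro v s hs
    obtain ⟨a, b, h1, h2, h3⟩ := exists_split (ι s)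
    obtain ⟨a', rfl⟩ := hr a h2
    have h4 : ∀ u z, ι (s - a') u z = b u z := fun u z => by
      rw [map_sub, ContinuousLinearMap.sub_apply, ContinuousLinearMap.sub_apply, h1]; ring
    have h5 : a' ∈ D.Sm v := by
      have h6 : s - a' ∈ D.Sm v := alt v _ fun u w => by rw [h4, h4]; exact h3 u w
      have h7 := (D.Sm v).sub_mem hs h6
      rwa [sub_sub_cancel] at h7
    have h8 := h v a' h5 h2
    subst h8
    intro u w
    rw [h1, h1, map_zero]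
    simp only [ContinuousLinearMap.zero_apply, zero_add]
    exact h3 u w
  · exact Or.inr h

end Final

end Vale.Agent.P207.H242.Dich
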