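import Mathlib

/-! # P207, line N4, row T2: leaf variation (Mathlib only core)

`t2`: functions `d j` on the unit ball with `d (j+1) = d j ∘ L j + e j`, `‖L j‖ ≤ exp (-a)`,
uniformly smooth; `e j` of size `t j ^ p` together with its `k`-th derivative, `t j ≤ C exp (b (n-j)) t n`:
then the `k`-th derivative of `d n` is `O (t n ^ s)`, `b s < k a`, `s ≤ p`. -/

open Set Metric Filter Topology
open scoped ContDiff

namespace Vale.Agent.P207.H242.T2

/-- recursion with a contraction factor `exp (-c)` and errors `min 1 (exp (b i) t) ^ p`. -/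
theorem geo {b c s p C : ℝ} (hs : 0 ≤ s) (hsp : s ≤ p) (hbs : b * s < c)
    (hC : 0 ≤ C) :
    ∃ K : ℝ, 0 ≤ K ∧ ∀ (n : ℕ) (t : ℝ) (u v : ℕ → ℝ), 0 < t → Real.exp (-(b * n)) ≤ C * t →
      u 0 ≤ C → (∀ j < n, u (j + 1) ≤ Real.exp (-c) * u j + v j) →
      (∀ j < n, v j ≤ C * (min 1 (C * (Real.exp (b * (n - j : ℝ)) * t))) ^ p) →
      u n ≤ K * t ^ s := by
  have hq : Real.exp (-(c - b * s)) < 1 := by
    rw [Real.exp_lt_one_iff]; linarith
  have hq0 : 0 < Real.exp (-(c - b * s)) := Real.exp_pos _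
  set q := Real.exp (-(c - b * s)) with hqdef
  have h1q : 0 < 1 - q := by linarith
  -- partial bound by induction: `u j ≤ C exp (-c j) + S j`, with `S` a finite geometric sum
  refine ⟨C * C ^ s + (C * C ^ s * Real.exp c) * (1 - q)⁻¹, by positivity, ?_⟩
  intro n t u v ht hnt hu0 hu hv
  have hstep : ∀ j ≤ n, u j ≤ C * Real.exp (-(c * j))
      + ∑ i ∈ Finset.range j, Real.exp (-(c * (j - 1 - i : ℝ))) * (C * (C * (Real.exp (b * (n - i : ℝ)) * t)) ^ s) := by
    intro j
    induction j with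
    | zero => intro _; simpa using hu0
    | succ j ih =>
      intro hj
      have h := hu j (by omega)
      have h2 := ih (by omega)
      have h3 : v j ≤ C * (C * (Real.exp (b * (n - j : ℝ)) * t)) ^ s := by
        refine (hv j (by omega)).trans ?_
        gcongr
        have hx : 0 ≤ C * (Real.exp (b * (n - j : ℝ)) * t) := by positivity
        have hm0 : 0 ≤ min 1 (C * (Real.exp (b * (n - j : ℝ)) * t)) := le_min zero_le_one hx
        calc (min 1 (C * (Real.exp (b * (n - j : ℝ)) * t))) ^ p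
            ≤ (min 1 (C * (Real.exp (b * (n - j : ℝ)) * t))) ^ s := by
              rcases hm0.eq_or_lt with h0 | h0
              · rcases hs.eq_or_lt with h4 | h4
                · rw [← h4, Real.rpow_zero]
                  rcases (hs.trans hsp).eq_or_lt with h5 | h5
                  · rw [← h5, Real.rpow_zero]
                  · rw [← h0, Real.zero_rpow h5.ne']; exact zero_le_one
                · rw [← h0, Real.zero_rpow h4.ne', Real.zero_rpow (h4.trans_le hsp).ne']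
              · exact Real.rpow_le_rpow_of_exponent_ge h0 (min_le_left _ _) hsp
          _ ≤ (C * (Real.exp (b * (n - j : ℝ)) * t)) ^ s :=
              Real.rpow_le_rpow hm0 (min_le_right _ _) hs
      have h5 : Real.exp (-c) * u j ≤ Real.exp (-c) * (C * Real.exp (-(c * j))
          + ∑ i ∈ Finset.range j, Real.exp (-(c * (j - 1 - i : ℝ))) * (C * (C * (Real.exp (b * (n - i : ℝ)) * t)) ^ s)) :=
        mul_le_mul_of_nonneg_left h2 (Real.exp_pos _).le
      refine h.trans ((add_le_add h5 h3).trans (le_of_eq ?_))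
      rw [Finset.sum_range_succ, mul_add, Finset.mul_sum]
      have h6 : Real.exp (-c) * (C * Real.exp (-(c * j))) = C * Real.exp (-(c * ((j + 1 : ℕ) : ℝ))) := by
        rw [mul_left_comm, ← Real.exp_add]; congr 2; push_cast; ring
      have h7 : ∀ i ∈ Finset.range j, Real.exp (-c) * (Real.exp (-(c * (j - 1 - i : ℝ))) * (C * (C * (Real.exp (b * (n - i : ℝ)) * t)) ^ s))
          = Real.exp (-(c * (((j + 1 : ℕ) : ℝ) - 1 - i : ℝ))) * (C * (C * (Real.exp (b * (n - i : ℝ)) * t)) ^ s) := by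
        intro i _
        rw [← mul_assoc, ← Real.exp_add]; congr 3; push_cast; ring
      rw [h6, Finset.sum_congr rfl h7]
      have h8 : Real.exp (-(c * (((j + 1 : ℕ) : ℝ) - 1 - j : ℝ))) = 1 := by
        rw [show (-(c * (((j + 1 : ℕ) : ℝ) - 1 - j : ℝ)) : ℝ) = 0 by push_cast; ring, Real.exp_zero]
      rw [h8, one_mul]; ring
  have hfin := hstep n le_rfl
  -- first term
  have hts : 0 < t ^ s := Real.rpow_pos_of_pos ht s
  have h1 : C * Real.exp (-(c * n)) ≤ C * C ^ s * t ^ s := by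
    have h2 : Real.exp (-(c * n)) ≤ (Real.exp (-(b * n))) ^ s := by
      rw [← Real.exp_mul]
      apply Real.exp_le_exp.mpr
      have : b * s * n ≤ c * n := by
        have : (0 : ℝ) ≤ n := Nat.cast_nonneg n
        nlinarith
      nlinarith
    have h3 : (Real.exp (-(b * n))) ^ s ≤ (C * t) ^ s :=
      Real.rpow_le_rpow (Real.exp_pos _).le hnt hs
    rw [Real.mul_rpow hC ht.le] at h3
    nlinarith [mul_le_mul_of_nonneg_left (h2.trans h3) hC]
  -- the sum
  have hsum : ∑ i ∈ Finset.range n, Real.exp (-(c * (n - 1 - i : ℝ))) * (C * (C * (Real.exp (b * (n - i : ℝ)) * t)) ^ s)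
      ≤ (C * C ^ s * Real.exp c) * (1 - q)⁻¹ * t ^ s := by
    have hterm : ∀ i ∈ Finset.range n, Real.exp (-(c * (n - 1 - i : ℝ))) * (C * (C * (Real.exp (b * (n - i : ℝ)) * t)) ^ s)
        = (C * C ^ s * Real.exp c * t ^ s) * q ^ (n - i) := by
      intro i hi
      have hi' : i < n := Finset.mem_range.mp hi
      rw [Real.mul_rpow hC (by positivity), Real.mul_rpow (Real.exp_pos _).le ht.le, ← Real.exp_mul]
      have hqp : q ^ (n - i) = Real.exp (-(c - b * s) * (n - i : ℝ)) := by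
        rw [hqdef, ← Real.exp_nat_mul]; congr 1
        rw [Nat.cast_sub hi'.le]; ring
      rw [hqp]
      have : Real.exp (-(c * (n - 1 - i : ℝ))) * Real.exp (b * (n - i : ℝ) * s)
          = Real.exp c * Real.exp (-(c - b * s) * (n - i : ℝ)) := by
        rw [← Real.exp_add, ← Real.exp_add]; congr 1; ring
      calc Real.exp (-(c * (n - 1 - i : ℝ))) * (C * (C ^ s * (Real.exp (b * (n - i : ℝ) * s) * t ^ s)))
          = C * C ^ s * t ^ s * (Real.exp (-(c * (n - 1 - i : ℝ))) * Real.exp (b * (n - i : ℝ) * s)) := by ring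
        _ = _ := by rw [this]; ring
    rw [Finset.sum_congr rfl hterm, ← Finset.mul_sum]
    have hg : ∑ i ∈ Finset.range n, q ^ (n - i) ≤ (1 - q)⁻¹ := by
      have h10 : ∑ i ∈ Finset.range n, q ^ (n - i) = ∑ i ∈ Finset.range n, q ^ (i + 1) := by
        rw [← Finset.sum_range_reflect]
        apply Finset.sum_congr rfl
        intro i hi
        have hi' : i < n := Finset.mem_range.mp hi
        congr 1; omega
      rw [h10]
      calc ∑ i ∈ Finset.range n, q ^ (i + 1) ≤ ∑ i ∈ Finset.range n, q ^ i := by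
            apply Finset.sum_le_sum; intro i _
            exact pow_le_pow_of_le_one hq0.le hq.le (Nat.le_succ i)
        _ ≤ ∑' i, q ^ i := (summable_geometric_of_lt_one hq0.le hq).sum_le_tsum _ (fun i _ => by positivity)
        _ = (1 - q)⁻¹ := tsum_geometric_of_lt_one hq0.le hq
    have : 0 ≤ C * C ^ s * Real.exp c * t ^ s := by positivity
    calc C * C ^ s * Real.exp c * t ^ s * ∑ i ∈ Finset.range n, q ^ (n - i)
        ≤ C * C ^ s * Real.exp c * t ^ s * (1 - q)⁻¹ := mul_le_mul_of_nonneg_left hg this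
      _ = _ := by ring
  calc u n ≤ _ := hfin
    _ ≤ C * C ^ s * t ^ s + (C * C ^ s * Real.exp c) * (1 - q)⁻¹ * t ^ s := add_le_add h1 hsum
    _ = _ := by ring

variable {E F G : Type*} [NormedAddCommGroup E] [NormedSpace ℝ E] [NormedAddCommGroup F] [NormedSpace ℝ F]
  [NormedAddCommGroup G] [NormedSpace ℝ G]

theorem iter_comp_right {f : E → F} {s : Set E} (hs : IsOpen s) (hf : ContDiffOn ℝ ∞ f s)
    (L : G →L[ℝ] E) {x : G} (hx : L x ∈ s) (k : ℕ) :
    iteratedFDeriv ℝ k (fun y => f (L y)) x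
      = (iteratedFDeriv ℝ k f (L x)).compContinuousLinearMap (fun _ => L) := by
  have hs' : IsOpen (L ⁻¹' s) := hs.preimage L.continuous
  have h := L.iteratedFDerivWithin_comp_right (n := ∞) hf hs.uniqueDiffOn hs'.uniqueDiffOn hx
    (i := k) (by exact_mod_cast le_top)
  rw [iteratedFDerivWithin_of_isOpen k hs' hx, iteratedFDerivWithin_of_isOpen k hs hx] at h
  exact h

theorem norm_iter_comp_right_le {f : E → F} {s : Set E} (hs : IsOpen s) (hf : ContDiffOn ℝ ∞ f s)
    (L : G →L[ℝ] E) {x : G} (hx : L x ∈ s) (k : ℕ) :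
    ‖iteratedFDeriv ℝ k (fun y => f (L y)) x‖ ≤ ‖iteratedFDeriv ℝ k f (L x)‖ * ‖L‖ ^ k := by
  rw [iter_comp_right hs hf L hx k]
  refine (ContinuousMultilinearMap.norm_compContinuousLinearMap_le _ _).trans ?_
  simp

/-- one step of the recursion. -/
theorem step {d d' e : E → F} {L : E →L[ℝ] E} {B : F →L[ℝ] F} {r : ℝ} {k : ℕ} {U V α β : ℝ}
    (hL1 : ‖L‖ ≤ 1) (hL : ‖L‖ ≤ Real.exp (-α)) (hB : ‖B‖ ≤ Real.exp β)
    (hd : ContDiffOn ℝ ∞ d (ball 0 r)) (he : ContDiffOn ℝ ∞ e (ball 0 r))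
    (hrec : ∀ x ∈ ball (0 : E) r, d' x = B (d (L x)) + e x)
    (hU : ∀ x ∈ ball (0 : E) r, ‖iteratedFDeriv ℝ k d x‖ ≤ U)
    (hV : ∀ x ∈ ball (0 : E) r, ‖iteratedFDeriv ℝ k e x‖ ≤ V) :
    ∀ x ∈ ball (0 : E) r, ‖iteratedFDeriv ℝ k d' x‖ ≤ Real.exp (-(k * α - β)) * U + V := by
  intro x hx
  have hLx : L x ∈ ball (0 : E) r := by
    rw [mem_ball_zero_iff] at hx ⊢
    calc ‖L x‖ ≤ ‖L‖ * ‖x‖ := L.le_opNorm x
      _ ≤ 1 * ‖x‖ := by gcongr
      _ < r := by simpa using hx
  have hev : d' =ᶠ[𝓝 x] (fun y => B (d (L y))) + e := by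
    filter_upwards [isOpen_ball.mem_nhds hx] with y hy
    simpa using hrec y hy
  rw [hev.iteratedFDeriv ℝ k |>.self_of_nhds]
  have hdL : ContDiffAt ℝ ∞ (fun y => d (L y)) x :=
    (hd.contDiffAt (isOpen_ball.mem_nhds hLx)).comp x L.contDiff.contDiffAt
  have hBd : ContDiffAt ℝ ∞ (fun y => B (d (L y))) x := B.contDiff.contDiffAt.comp x hdL
  have hex : ContDiffAt ℝ ∞ e x := he.contDiffAt (isOpen_ball.mem_nhds hx)
  have hle : ((k : ℕ∞) : WithTop ℕ∞) ≤ ∞ := by exact_mod_cast le_top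
  rw [iteratedFDeriv_add_apply (hBd.of_le hle) (hex.of_le hle)]
  refine (norm_add_le _ _).trans (add_le_add ?_ (hV x hx))
  have h1 : iteratedFDeriv ℝ k (fun y => B (d (L y))) x
      = B.compContinuousMultilinearMap (iteratedFDeriv ℝ k (fun y => d (L y)) x) :=
    B.iteratedFDeriv_comp_left hdL hle
  rw [h1]
  have hU0 : 0 ≤ U := (norm_nonneg _).trans (hU x hx)
  calc ‖B.compContinuousMultilinearMap (iteratedFDeriv ℝ k (fun y => d (L y)) x)‖
      ≤ ‖B‖ * ‖iteratedFDeriv ℝ k (fun y => d (L y)) x‖ :=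
        ContinuousLinearMap.norm_compContinuousMultilinearMap_le _ _
    _ ≤ ‖B‖ * (‖iteratedFDeriv ℝ k d (L x)‖ * ‖L‖ ^ k) := by
        gcongr; exact norm_iter_comp_right_le isOpen_ball hd L hLx k
    _ ≤ Real.exp β * (U * (Real.exp (-α)) ^ k) := by
        gcongr; exact hU _ hLx
    _ = Real.exp (-(k * α - β)) * U := by
        rw [← Real.exp_nat_mul]
        have : Real.exp (-(k * α - β)) = Real.exp β * Real.exp (k * (-α)) := by
          rw [← Real.exp_add]; congr 1; ring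
        rw [this]; ring

/-- **T2, k-th derivative form.** `d (j+1) = B j ∘ d j ∘ L j + e j`, `‖L j‖ ≤ exp (-α)`, `‖B j‖ ≤ exp β`,
`k`-th derivative of `e j` of size `min 1 (C exp (b (n-j)) t) ^ p`; then the `k`-th derivative of `d n` is
`O (t ^ s)` for `s ≤ p`, `b s < k α - β`. -/
theorem t2 {r b s p C α β : ℝ} (k : ℕ) (hs : 0 ≤ s) (hsp : s ≤ p) (hbs : b * s < k * α - β)
    (hα : 0 ≤ α) (hC : 0 ≤ C) :
    ∃ K : ℝ, 0 ≤ K ∧ ∀ (n : ℕ) (t : ℝ) (d e : ℕ → E → F) (L : ℕ → E →L[ℝ] E) (B : ℕ → F →L[ℝ] F),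
      0 < t → Real.exp (-(b * n)) ≤ C * t →
      (∀ j < n, ‖L j‖ ≤ Real.exp (-α)) → (∀ j < n, ‖B j‖ ≤ Real.exp β) →
      (∀ j ≤ n, ContDiffOn ℝ ∞ (d j) (ball 0 r)) → (∀ j < n, ContDiffOn ℝ ∞ (e j) (ball 0 r)) →
      (∀ j < n, ∀ x ∈ ball (0 : E) r, d (j + 1) x = B j (d j (L j x)) + e j x) →
      (∀ x ∈ ball (0 : E) r, ‖iteratedFDeriv ℝ k (d 0) x‖ ≤ C) →
      (∀ j < n, ∀ x ∈ ball (0 : E) r, ‖iteratedFDeriv ℝ k (e j) x‖
        ≤ C * (min 1 (C * (Real.exp (b * (n - j : ℝ)) * t))) ^ p) →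
      ∀ x ∈ ball (0 : E) r, ‖iteratedFDeriv ℝ k (d n) x‖ ≤ K * t ^ s := by
  obtain ⟨K, hK, h⟩ := geo (b := b) (c := k * α - β) (s := s) (p := p) (C := C) hs hsp hbs hC
  refine ⟨K, hK, ?_⟩
  intro n t d e L B ht hnt hL hB hd he hrec h0 hV x hx
  set v : ℕ → ℝ := fun j => C * (min 1 (C * (Real.exp (b * (n - j : ℝ)) * t))) ^ p with hv
  set u : ℕ → ℝ := fun j => Nat.rec C (fun j y => Real.exp (-(k * α - β)) * y + v j) j with hu
  have hus : ∀ j, u (j + 1) = Real.exp (-(k * α - β)) * u j + v j := fun j => rfl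
  have key : ∀ j ≤ n, ∀ x ∈ ball (0 : E) r, ‖iteratedFDeriv ℝ k (d j) x‖ ≤ u j := by
    intro j
    induction j with
    | zero => intro _; exact h0
    | succ j ih =>
      intro hj
      rw [hus]
      have hL1 : Real.exp (-α) ≤ 1 := Real.exp_le_one_iff.mpr (by linarith)
      exact step (hL1 := (hL j (by omega)).trans hL1) (hL j (by omega)) (hB j (by omega))
        (hd j (by omega)) (he j (by omega)) (hrec j (by omega)) (ih (by omega)) (hV j (by omega))
  exact (key n le_rfl x hx).trans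
    (h n t u v ht hnt le_rfl (fun j _ => (hus j).le) (fun j _ => le_rfl))

end Vale.Agent.P207.H242.T2
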