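import Vale.Agent.P207.H242.T2
import Vale.Agent.P207.H535.Interp

/-! # P207, line N4, row T2: leaf variation with errors small only in `C^0` (interpolation inside) -/

open Set Metric Filter Topology
open scoped ContDiff

namespace Vale.Agent.P207.H242.T2

variable {E F : Type*} [NormedAddCommGroup E] [NormedSpace ℝ E] [NormedAddCommGroup F] [NormedSpace ℝ F]

/-- interpolation for a function of size `C * x ^ p`, `x ∈ (0,1]`. -/
theorem interp_pow (M : ℕ → ℝ) (k : ℕ) {r R s p C : ℝ} (hr : r < R) (hs : 0 ≤ s) (hsp : s < p)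
    (hC : 0 ≤ C) :
    ∃ K : ℝ, 0 ≤ K ∧ ∀ (f : E → F) (x : ℝ), ContDiffOn ℝ ∞ f (ball 0 R) → 0 < x → x ≤ 1 →
      (∀ i, ∀ y ∈ ball (0 : E) R, ‖iteratedFDeriv ℝ i f y‖ ≤ M i) →
      (∀ y ∈ ball (0 : E) R, ‖f y‖ ≤ C * x ^ p) →
      ∀ y ∈ ball (0 : E) r, ‖iteratedFDeriv ℝ k f y‖ ≤ K * x ^ s := by
  have hp : 0 < p := hs.trans_lt hsp
  have hε : 0 < (p - s) / p := div_pos (by linarith) hp
  obtain ⟨D, hD, h⟩ := H535.interp (E := E) (F := F) (fun i => (C + 1)⁻¹ * M i) k hε hr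
  have hC1 : 0 < C + 1 := by linarith
  refine ⟨(C + 1) * D, by positivity, ?_⟩
  intro f x hf hx hx1 hM hb y hy
  set g : E → F := (C + 1)⁻¹ • f with hg
  have hgd : ContDiffOn ℝ ∞ g (ball 0 R) := hf.const_smul _
  have hle : ∀ i : ℕ, ((i : ℕ∞) : WithTop ℕ∞) ≤ ∞ := fun i => by exact_mod_cast le_top
  have hgi : ∀ i, ∀ z ∈ ball (0 : E) R, iteratedFDeriv ℝ i g z = (C + 1)⁻¹ • iteratedFDeriv ℝ i f z := by
    intro i z hz
    exact iteratedFDeriv_const_smul_apply ((hf.contDiffAt (isOpen_ball.mem_nhds hz)).of_le (hle i))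
  have h1 := h g 0 (x ^ p) hgd ?_ (Real.rpow_pos_of_pos hx p) (Real.rpow_le_one hx.le hx1 hp.le) ?_ y hy
  · rw [hgi k y (ball_subset_ball hr.le hy), norm_smul, Real.norm_of_nonneg (by positivity)] at h1
    have h2 : (x ^ p) ^ (1 - (p - s) / p) = x ^ s := by
      rw [← Real.rpow_mul hx.le]; congr 1; field_simp; ring
    rw [h2] at h1
    calc ‖iteratedFDeriv ℝ k f y‖ = (C + 1) * ((C + 1)⁻¹ * ‖iteratedFDeriv ℝ k f y‖) := by
          field_simp
      _ ≤ (C + 1) * (D * x ^ s) := by gcongr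
      _ = (C + 1) * D * x ^ s := by ring
  · intro i z hz
    rw [hgi i z hz, norm_smul, Real.norm_of_nonneg (by positivity)]
    exact mul_le_mul_of_nonneg_left (hM i z hz) (by positivity)
  · intro z hz
    rw [hg, Pi.smul_apply, norm_smul, Real.norm_of_nonneg (by positivity)]
    have h3 := hb z hz
    have h4 : 0 ≤ x ^ p := (Real.rpow_pos_of_pos hx p).le
    calc (C + 1)⁻¹ * ‖f z‖ ≤ (C + 1)⁻¹ * (C * x ^ p) := by gcongr
      _ = (C / (C + 1)) * x ^ p := by ring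
      _ ≤ 1 * x ^ p := by
          gcongr
          rw [div_le_one hC1]; linarith
      _ = x ^ p := one_mul _

/-- **T2 with `C^0`-small errors.** As `t2`, the errors `e j` are uniformly smooth on `ball 0 R` and of size
`C * min 1 (C exp (b (n-j)) t) ^ p` there in `C^0` only; conclusion for the `k`-th derivative of `d n`
on `ball 0 r`, `r < R`, `s < p`, `b s < k α - β`. -/
theorem t2b {r R b s p C α β : ℝ} (k : ℕ) (M : ℕ → ℝ) (hr : r < R) (hs : 0 ≤ s) (hsp : s < p)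
    (hbs : b * s < k * α - β) (hα : 0 ≤ α) (hC : 0 < C) :
    ∃ K : ℝ, 0 ≤ K ∧ ∀ (n : ℕ) (t : ℝ) (d e : ℕ → E → F) (L : ℕ → E →L[ℝ] E) (B : ℕ → F →L[ℝ] F),
      0 < t → Real.exp (-(b * n)) ≤ C * t →
      (∀ j < n, ‖L j‖ ≤ Real.exp (-α)) → (∀ j < n, ‖B j‖ ≤ Real.exp β) →
      (∀ j ≤ n, ContDiffOn ℝ ∞ (d j) (ball 0 R)) → (∀ j < n, ContDiffOn ℝ ∞ (e j) (ball 0 R)) →
      (∀ j < n, ∀ x ∈ ball (0 : E) R, d (j + 1) x = B j (d j (L j x)) + e j x) →
      (∀ x ∈ ball (0 : E) R, ‖iteratedFDeriv ℝ k (d 0) x‖ ≤ C) →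
      (∀ j < n, ∀ i, ∀ x ∈ ball (0 : E) R, ‖iteratedFDeriv ℝ i (e j) x‖ ≤ M i) →
      (∀ j < n, ∀ x ∈ ball (0 : E) R, ‖e j x‖ ≤ C * (min 1 (C * (Real.exp (b * (n - j : ℝ)) * t))) ^ p) →
      ∀ x ∈ ball (0 : E) r, ‖iteratedFDeriv ℝ k (d n) x‖ ≤ K * t ^ s := by
  obtain ⟨K₁, hK₁, h₁⟩ := interp_pow (E := E) (F := F) M k hr hs hsp hC.le
  obtain ⟨K, hK, h⟩ := t2 (E := E) (F := F) (r := r) (b := b) (s := s) (p := s) (C := max C K₁) (α := α) (β := β) k hs le_rfl hbs hα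
    (hC.le.trans (le_max_left _ _))
  refine ⟨K, hK, ?_⟩
  intro n t d e L B ht hnt hL hB hd he hrec h0 hM hb
  have hsub : ball (0 : E) r ⊆ ball 0 R := ball_subset_ball hr.le
  refine h n t d e L B ht (hnt.trans ?_) hL hB (fun j hj => (hd j hj).mono hsub)
    (fun j hj => (he j hj).mono hsub) (fun j hj x hx => hrec j hj x (hsub hx))
    (fun x hx => (h0 x (hsub hx)).trans (le_max_left _ _)) ?_
  · exact mul_le_mul_of_nonneg_right (le_max_left _ _) ht.le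
  · intro j hj x hx
    set y : ℝ := min 1 (C * (Real.exp (b * (n - j : ℝ)) * t)) with hy
    have hy0 : 0 < y := lt_min one_pos (by positivity)
    refine (h₁ (e j) y (he j hj) hy0 (min_le_left _ _) (hM j hj) (hb j hj) x hx).trans ?_
    have h5 : y ≤ min 1 (max C K₁ * (Real.exp (b * (n - j : ℝ)) * t)) :=
      min_le_min le_rfl (mul_le_mul_of_nonneg_right (le_max_left _ _) (by positivity))
    exact mul_le_mul (le_max_right _ _) (Real.rpow_le_rpow hy0.le h5 hs)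
      (Real.rpow_nonneg hy0.le _) (hC.le.trans (le_max_left _ _))

end Vale.Agent.P207.H242.T2
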